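import Vale.Agent.P133.Unit

open Filter Topology

namespace Vale.Agent.Results.P133.PIStrong

universe u v

/-- `P` is the stabilisation `C ⊗ K` of `C`, with `E i j a = a ⊗ e_{ij}`: the `E i j` multiply like
matrix units, `E 0 0` is injective and the finite matrices are dense. -/
structure IsStabilization {C : Type u} {P : Type v} [NonUnitalCStarAlgebra C]
    [NonUnitalCStarAlgebra P] (E : ℕ → ℕ → C →ₗ[ℂ] P) : Prop where
  mul : ∀ i j k l a b, E i j a * E k l b = if j = k then E i l (a * b) else 0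
  star : ∀ i j a, star (E i j a) = E j i (star a)
  inj : Function.Injective (E 0 0)
  dense : Dense (Submodule.span ℂ {z : P | ∃ i j a, z = E i j a} : Set P)

/-- Cuntz comparison -/
def CuntzLE {P : Type v} [NonUnitalCStarAlgebra P] (a b : P) : Prop :=
  ∃ x : ℕ → P, Tendsto (fun n => ‖star (x n) * b * x n - a‖) atTop (𝓝 0)

/-- every positive `h` is properly infinite: `h ⊕ h ≾ h` in the stabilisation -/
def PurelyInfinite {C : Type u} {P : Type v} [NonUnitalCStarAlgebra C] [PartialOrder C]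
    [NonUnitalCStarAlgebra P] (E : ℕ → ℕ → C →ₗ[ℂ] P) : Prop :=
  ∀ h : C, 0 ≤ h → CuntzLE (E 0 0 h + E 1 1 h) (E 0 0 h)

def StronglyPurelyInfinite (C : Type u) [NonUnitalCStarAlgebra C] [PartialOrder C] : Prop :=
  ∀ x y : C, 0 ≤ x → 0 ≤ y → ∀ ε : ℝ, 0 < ε → ∃ s t : C,
    ‖star s * (x * x) * s - x * x‖ < ε ∧ ‖star t * (y * y) * t - y * y‖ < ε ∧
      ‖star s * (x * y) * t‖ < ε

theorem result (C : Type u) (P : Type v) [NonUnitalCStarAlgebra C] [PartialOrder C]
    [StarOrderedRing C] [NonUnitalCStarAlgebra P] (E : ℕ → ℕ → C →ₗ[ℂ] P)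
    (hE : IsStabilization E) (hC : PurelyInfinite E) : StronglyPurelyInfinite C := by
  refine Vale.Agent.P133.core fun h h0 ε hε => ?_
  obtain ⟨x, hx⟩ := hC h h0
  obtain ⟨n, hn⟩ := (hx.eventually (gt_mem_nhds hε)).exists
  exact Vale.Agent.P133.entries E hE.mul hE.star hE.inj hE.dense h0 hn

end Vale.Agent.Results.P133.PIStrong
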