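import Vale.Agent.P133.Unit

namespace Vale.Agent.Results.P133.PIStrongMat

universe u

/-- the matrix `diag(h, …, h, 0, …, 0)` in `M_n(C)` with `k` copies of `h` -/
noncomputable def amp {C : Type u} [NonUnitalCStarAlgebra C] (n k : ℕ) (h : C) :
    CStarMatrix (Fin n) (Fin n) C :=
  CStarMatrix.ofMatrix (Matrix.diagonal fun i : Fin n => if (i : ℕ) < k then h else 0)

/-- `h ⊕ h ≾ h` in the Cuntz order, tested in the matrix algebras `M_n(C)`, `n ≥ 2` -/
def ProperlyInfinite {C : Type u} [NonUnitalCStarAlgebra C] [PartialOrder C] [StarOrderedRing C]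
    (h : C) : Prop :=
  ∀ ε : ℝ, 0 < ε → ∃ n : ℕ, 2 ≤ n ∧ ∃ x : CStarMatrix (Fin n) (Fin n) C,
    ‖star x * amp n 1 h * x - amp n 2 h‖ < ε

def PurelyInfinite (C : Type u) [NonUnitalCStarAlgebra C] [PartialOrder C] [StarOrderedRing C] :
    Prop :=
  ∀ h : C, 0 ≤ h → ProperlyInfinite h

def StronglyPurelyInfinite (C : Type u) [NonUnitalCStarAlgebra C] [PartialOrder C] : Prop :=
  ∀ x y : C, 0 ≤ x → 0 ≤ y → ∀ ε : ℝ, 0 < ε → ∃ s t : C,
    ‖star s * (x * x) * s - x * x‖ < ε ∧ ‖star t * (y * y) * t - y * y‖ < ε ∧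
      ‖star s * (x * y) * t‖ < ε

theorem result (C : Type u) [NonUnitalCStarAlgebra C] [PartialOrder C] [StarOrderedRing C]
    (hC : PurelyInfinite C) : StronglyPurelyInfinite C := by
  refine Vale.Agent.P133.core fun h h0 ε hε => ?_
  obtain ⟨n, hn, x, hx⟩ := hC h h0 ε hε
  obtain ⟨n, rfl⟩ := Nat.exists_eq_add_of_le' hn
  have e : ∀ j k, (star x * amp (n + 2) 1 h * x - amp (n + 2) 2 h) j k =
      star (x 0 j) * h * x 0 k - amp (n + 2) 2 h j k := fun j k => by
    simp [CStarMatrix.mul_apply, CStarMatrix.star_apply, amp, Matrix.diagonal_apply,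
      Fin.sum_univ_succ]
  have b : ∀ j k, ‖star (x 0 j) * h * x 0 k - amp (n + 2) 2 h j k‖ < ε := fun j k =>
    e j k ▸ CStarMatrix.norm_entry_le_norm.trans_lt hx
  refine ⟨x 0 0, x 0 1, ?_, ?_, ?_⟩
  · simpa [amp] using b 0 0
  · simpa [amp] using b 1 1
  · simpa [amp] using b 0 1

end Vale.Agent.Results.P133.PIStrongMat
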